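import Vale.Agent.Lib.P162.Decay

namespace Vale.Agent.Results.P162.DistanceNearOne

open Vale.Agent.Lib.P162

/-- For a deck of `n = 2 ^ d` cards, `d ≥ 2`: after any `t ≤ 2 d - 2` Thorp shuffles the total
variation distance to uniform is at least `1 - 1 / √(2 ^ (d - 2)) = 1 - 2 / √n`; hence for every
threshold `ε < 1 - 2 / √n`, every `t` with distance at most `ε` satisfies `t ≥ 2 d - 1`. -/
theorem result (d : ℕ) (hd : 2 ≤ d) :
    (∀ t : ℕ, t ≤ 2 * d - 2 →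
      1 - 1 / Real.sqrt ((2 : ℝ) ^ (d - 2)) ≤
        tv (convPow (thorpLaw (2 ^ (d - 1))) t)
          (unif (Equiv.Perm (Fin (2 * 2 ^ (d - 1)))))) ∧
    (∀ ε : ℝ, ε < 1 - 1 / Real.sqrt ((2 : ℝ) ^ (d - 2)) →
      ∀ t : ℕ, tv (convPow (thorpLaw (2 ^ (d - 1))) t)
        (unif (Equiv.Perm (Fin (2 * 2 ^ (d - 1))))) ≤ ε → 2 * d - 1 ≤ t) := by
  have key : ∀ t : ℕ, t ≤ 2 * d - 2 →
      1 - 1 / Real.sqrt ((2 : ℝ) ^ (d - 2)) ≤
        tv (convPow (thorpLaw (2 ^ (d - 1))) t)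
          (unif (Equiv.Perm (Fin (2 * 2 ^ (d - 1))))) := by
    intro t ht
    have h1 := tv_thorp_ge_sharp hd ht
    have h2 := ratio_le (2 ^ (d - 2)) Nat.one_le_two_pow
    have hc : (((2 ^ (d - 2) : ℕ)) : ℝ) = (2 : ℝ) ^ (d - 2) := by push_cast; ring
    rw [hc] at h2
    linarith
  refine ⟨key, fun ε hε t ht => ?_⟩
  by_contra hlt
  have h1 := key t (by omega)
  linarith

end Vale.Agent.Results.P162.DistanceNearOne
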