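import Vale.Agent.Lib.P162.Balance

namespace Vale.Agent.Results.P162.LowerBound

open Vale.Agent.Lib.P162

/-- For a deck of `n = 2 ^ d = 2 * 2 ^ (d - 1)` cards, `d ≥ 2`: after any `t ≤ 2 d - 2` Thorp
shuffles the total variation distance to uniform is at least `1 / 3`; hence every `t` with
distance at most `1 / 4` satisfies `t ≥ 2 d - 1`, that is `t_mix (2 ^ d) ≥ 2 d - 1`. -/
theorem result (d : ℕ) (hd : 2 ≤ d) :
    (∀ t : ℕ, t ≤ 2 * d - 2 →
      1 / 3 ≤ tv (convPow (thorpLaw (2 ^ (d - 1))) t)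
        (unif (Equiv.Perm (Fin (2 * 2 ^ (d - 1)))))) ∧
    (∀ t : ℕ, tv (convPow (thorpLaw (2 ^ (d - 1))) t)
        (unif (Equiv.Perm (Fin (2 * 2 ^ (d - 1))))) ≤ 1 / 4 → 2 * d - 1 ≤ t) := by
  refine ⟨fun t ht => tv_thorp_ge hd ht, fun t ht => ?_⟩
  by_contra hlt
  have h1 := tv_thorp_ge hd (t := t) (by omega)
  linarith

end Vale.Agent.Results.P162.LowerBound
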