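import Vale.Agent.Lib.P162.Sharp

namespace Vale.Agent.Results.P162.SharpDistance

open Vale.Agent.Lib.P162

/-- For a deck of `n = 2 ^ d = 4 m` cards, `m = 2 ^ (d - 2)`, `d ≥ 2`: after any `t ≤ 2 d - 2`
Thorp shuffles the total variation distance to uniform is at least
`1 - choose (2 m) m ^ 2 / choose (4 m) (2 m)`; hence, for every threshold `ε` below that number,
every `t` with distance at most `ε` satisfies `t ≥ 2 d - 1`; and that number is at least `1 / 3`,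
so that the threshold `1 / 4` of the problem is covered. -/
theorem result (d : ℕ) (hd : 2 ≤ d) :
    (∀ t : ℕ, t ≤ 2 * d - 2 →
      1 - (((2 * 2 ^ (d - 2)).choose (2 ^ (d - 2)) : ℝ)) ^ 2 /
          ((4 * 2 ^ (d - 2)).choose (2 * 2 ^ (d - 2)) : ℝ) ≤
        tv (convPow (thorpLaw (2 ^ (d - 1))) t)
          (unif (Equiv.Perm (Fin (2 * 2 ^ (d - 1)))))) ∧
    (∀ ε : ℝ, ε < 1 - (((2 * 2 ^ (d - 2)).choose (2 ^ (d - 2)) : ℝ)) ^ 2 /
          ((4 * 2 ^ (d - 2)).choose (2 * 2 ^ (d - 2)) : ℝ) →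
      ∀ t : ℕ, tv (convPow (thorpLaw (2 ^ (d - 1))) t)
        (unif (Equiv.Perm (Fin (2 * 2 ^ (d - 1))))) ≤ ε → 2 * d - 1 ≤ t) ∧
    (1 / 3 : ℝ) ≤ 1 - (((2 * 2 ^ (d - 2)).choose (2 ^ (d - 2)) : ℝ)) ^ 2 /
          ((4 * 2 ^ (d - 2)).choose (2 * 2 ^ (d - 2)) : ℝ) := by
  refine ⟨fun t ht => tv_thorp_ge_sharp hd ht, fun ε hε t ht => ?_, ?_⟩
  · by_contra hlt
    have h1 := tv_thorp_ge_sharp hd (t := t) (by omega)
    linarith
  · have h5 := three_mul_choose_sq_le (2 ^ (d - 2)) Nat.one_le_two_pow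
    have h5' : 3 * (((2 * 2 ^ (d - 2)).choose (2 ^ (d - 2)) : ℝ)) ^ 2 ≤
        2 * ((4 * 2 ^ (d - 2)).choose (2 * 2 ^ (d - 2)) : ℝ) := by
      rw [sq]
      exact_mod_cast h5
    have hpos2 : (0 : ℝ) < ((4 * 2 ^ (d - 2)).choose (2 * 2 ^ (d - 2)) : ℝ) := by
      exact_mod_cast Nat.choose_pos (by omega)
    have : (((2 * 2 ^ (d - 2)).choose (2 ^ (d - 2)) : ℝ)) ^ 2 /
        ((4 * 2 ^ (d - 2)).choose (2 * 2 ^ (d - 2)) : ℝ) ≤ 2 / 3 := by
      rw [div_le_iff₀ hpos2]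
      linarith
    linarith

end Vale.Agent.Results.P162.SharpDistance
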